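import Vale.Agent.P183.R2.H416.SubLat

/-!
All sublattices (the empty one included) of a finite distributive lattice.
-/

namespace Vale.Agent.P183.H577

open Vale.Agent.P183 Vale.Agent.P183.H996 Vale.Agent.P183.H994 Vale.Agent.P183.H416

/-- The lattice with a new least and a new greatest element. -/
abbrev Ext (D : Type) : Type := WithBot (WithTop D)

/-- A sublattice together with the two new elements. -/
def extSub {D : Type} [DistribLattice D] (S : Sublattice D) :
    {L : Sublattice (Ext D) // ⊥ ∈ L ∧ ⊤ ∈ L} :=
  ⟨{ carrier := {x | x = ⊥ ∨ x = ⊤ ∨ ∃ d ∈ S, x = ((d : WithTop D) : Ext D)}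
     supClosed' := by
       rintro x (rfl | rfl | ⟨a, ha, rfl⟩) y hy
       · rw [bot_sup_eq]
         exact hy
       · rw [top_sup_eq]
         exact Or.inr (Or.inl rfl)
       · rcases hy with rfl | rfl | ⟨b, hb, rfl⟩
         · rw [sup_bot_eq]
           exact Or.inr (Or.inr ⟨a, ha, rfl⟩)
         · rw [sup_top_eq]
           exact Or.inr (Or.inl rfl)
         · exact Or.inr (Or.inr ⟨a ⊔ b, S.supClosed' ha hb, rfl⟩)
     infClosed' := by
       rintro x (rfl | rfl | ⟨a, ha, rfl⟩) y hy
       · rw [bot_inf_eq]
         exact Or.inl rfl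
       · rw [top_inf_eq]
         exact hy
       · rcases hy with rfl | rfl | ⟨b, hb, rfl⟩
         · rw [inf_bot_eq]
           exact Or.inl rfl
         · rw [inf_top_eq]
           exact Or.inr (Or.inr ⟨a, ha, rfl⟩)
         · exact Or.inr (Or.inr ⟨a ⊓ b, S.infClosed' ha hb, rfl⟩) },
   Or.inl rfl, Or.inr (Or.inl rfl)⟩

theorem coe_mem_extSub {D : Type} [DistribLattice D] (S : Sublattice D) (d : D) :
    ((d : WithTop D) : Ext D) ∈ (extSub S).1 ↔ d ∈ S := by
  constructor
  · rintro (h | h | ⟨a, ha, h⟩)
    · exact absurd h (WithBot.coe_ne_bot)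
    · exact absurd (WithBot.coe_injective h) (WithTop.coe_ne_top)
    · rw [WithTop.coe_injective (WithBot.coe_injective h)]
      exact ha
  · intro h
    exact Or.inr (Or.inr ⟨d, h, rfl⟩)

/-- The trace of a bounded sublattice. -/
def trSub {D : Type} [DistribLattice D] (L : {L : Sublattice (Ext D) // ⊥ ∈ L ∧ ⊤ ∈ L}) :
    Sublattice D where
  carrier := {d | ((d : WithTop D) : Ext D) ∈ L.1}
  supClosed' := by
    intro a ha b hb
    exact L.1.supClosed' ha hb
  infClosed' := by
    intro a ha b hb
    exact L.1.infClosed' ha hb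

/-- The sublattices of a distributive lattice and the bounded sublattices of the extended one. -/
def extIso (D : Type) [DistribLattice D] :
    Sublattice D ≃o {L : Sublattice (Ext D) // ⊥ ∈ L ∧ ⊤ ∈ L} where
  toFun := extSub
  invFun := trSub
  left_inv S := by
    apply SetLike.ext
    intro d
    exact coe_mem_extSub S d
  right_inv L := by
    apply Subtype.ext
    apply SetLike.ext
    intro x
    constructor
    · rintro (rfl | rfl | ⟨a, ha, rfl⟩)
      · exact L.2.1
      · exact L.2.2
      · exact ha
    · intro hx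
      induction x using WithBot.recBotCoe with
      | bot => exact Or.inl rfl
      | coe y =>
        induction y using WithTop.recTopCoe with
        | top => exact Or.inr (Or.inl rfl)
        | coe d => exact Or.inr (Or.inr ⟨d, hx, rfl⟩)
  map_rel_iff' := by
    intro S T
    constructor
    · intro h d hd
      exact (coe_mem_extSub T d).mp (h ((coe_mem_extSub S d).mpr hd))
    · rintro h x (rfl | rfl | ⟨a, ha, rfl⟩)
      · exact Or.inl rfl
      · exact Or.inr (Or.inl rfl)
      · exact Or.inr (Or.inr ⟨a, h ha, rfl⟩)

theorem sub_all (h : ∀ (X : Type) [Finite X] (a b : Preords X), a ≤ b →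
      GroupInterval {x : Preords X // a ≤ x ∧ x ≤ b})
    (D : Type) [DistribLattice D] [Finite D] : GroupInterval (Sublattice D) := by
  have hf : Finite (Ext D) := inferInstanceAs (Finite (Option (Option D)))
  exact GroupInterval.of_iso (extIso D) (sublat_row h (Ext D))

theorem sub_all_dual (h : ∀ (X : Type) [Finite X] (a b : Preords X), a ≤ b →
      GroupInterval {x : Preords X // a ≤ x ∧ x ≤ b})
    (D : Type) [DistribLattice D] [Finite D] : GroupInterval (Sublattice D)ᵒᵈ :=
  GroupInterval.dual (sub_all h D)

end Vale.Agent.P183.H577
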