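import Mathlib.Order.Birkhoff
import Mathlib.Order.Sublattice
import Mathlib.Data.Fintype.Powerset
import Mathlib.Data.Set.Finite.Lattice
import Mathlib.Data.Fintype.Order

/-!
Bounded sublattices of a finite distributive lattice and preorders on its join irreducible
elements (Birkhoff / Priestley duality).
-/

namespace Vale.Agent.P183.H416

/-- The preorders on a set, ordered by inclusion. -/
abbrev Pre (X : Type) : Type :=
  {r : X → X → Prop // (∀ x, r x x) ∧ ∀ x y z, r x y → r y z → r x z}

/-- The sublattices with the least and the greatest element. -/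
abbrev BSub (D : Type) [Lattice D] [BoundedOrder D] : Type :=
  {S : Sublattice D // ⊥ ∈ S ∧ ⊤ ∈ S}

/-- The preorder of a family of sets. -/
def rel {X : Type} (S : Set (Set X)) : Pre X :=
  ⟨fun x y => ∀ U ∈ S, y ∈ U → x ∈ U, fun _ _ _ h => h,
    fun _ _ _ h₁ h₂ U hU hz => h₁ U hU (h₂ U hU hz)⟩

/-- The down-sets of a preorder. -/
def downs {X : Type} (r : Pre X) : Set (Set X) := {U | ∀ x y, r.1 x y → y ∈ U → x ∈ U}

theorem rel_downs {X : Type} (r : Pre X) : rel (downs r) = r := by
  apply Subtype.ext
  funext x y
  apply propext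
  constructor
  · intro h
    exact h {z | r.1 z y} (fun a b hab hb => r.2.2 a b y hab hb) (r.2.1 y)
  · intro h U hU hy
    exact hU x y h hy

theorem mem_downs_rel {X : Type} [Finite X] (S : Set (Set X)) (h0 : ∅ ∈ S)
    (h1 : Set.univ ∈ S) (hsup : ∀ U ∈ S, ∀ V ∈ S, U ∪ V ∈ S)
    (hinf : ∀ U ∈ S, ∀ V ∈ S, U ∩ V ∈ S) (U : Set X) : U ∈ downs (rel S) ↔ U ∈ S := by
  classical
  constructor
  · intro hU
    have hI : ∀ T : Set (Set X), T ⊆ S → ⋂₀ T ∈ S := by
      intro T hT
      have hf : T.Finite := Set.toFinite T
      induction T, hf using Set.Finite.induction_on with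
      | empty => simpa using h1
      | insert _ _ ih =>
        rw [Set.sInter_insert]
        exact hinf _ (hT (Set.mem_insert _ _)) _
          (ih (fun x hx => hT (Set.mem_insert_of_mem _ hx)))
    have hJ : ∀ T : Set (Set X), T ⊆ S → ⋃₀ T ∈ S := by
      intro T hT
      have hf : T.Finite := Set.toFinite T
      induction T, hf using Set.Finite.induction_on with
      | empty => simpa using h0
      | insert _ _ ih =>
        rw [Set.sUnion_insert]
        exact hsup _ (hT (Set.mem_insert _ _)) _
          (ih (fun x hx => hT (Set.mem_insert_of_mem _ hx)))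
    have : U = ⋃₀ {W | ∃ y ∈ U, W = ⋂₀ {V | V ∈ S ∧ y ∈ V}} := by
      ext x
      constructor
      · intro hx
        exact ⟨_, ⟨x, hx, rfl⟩, fun V hV => hV.2⟩
      · rintro ⟨W, ⟨y, hy, rfl⟩, hx⟩
        exact hU x y (fun V hV hyV => hx V ⟨hV, hyV⟩) hy
    rw [this]
    apply hJ
    rintro W ⟨y, -, rfl⟩
    exact hI _ (fun V hV => hV.1)
  · intro hU x y h hy
    exact h U hU hy

theorem downs_anti {X : Type} {r s : Pre X} : downs s ⊆ downs r ↔ r ≤ s := by
  constructor
  · intro h x y hxy
    have := rel_downs s
    rw [← this]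
    intro U hU hy
    exact h hU x y hxy hy
  · intro h U hU x y hxy hy
    exact hU x y (h x y hxy) hy

section

variable {D : Type} [DistribLattice D] [BoundedOrder D]

/-- The join irreducible elements. -/
abbrev JI (D : Type) [DistribLattice D] : Type := {a : D // SupIrred a}

/-- The set of join irreducible elements below an element. -/
def below (d : D) : Set (JI D) := {p | p.1 ≤ d}

theorem below_le [Finite D] {a b : D} : below a ⊆ below b ↔ a ≤ b := by
  constructor
  · intro h
    obtain ⟨s, hs, hi⟩ := exists_supIrred_decomposition a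
    rw [← hs]
    refine Finset.sup_le (fun c hc => ?_)
    have hca : c ≤ a := hs ▸ Finset.le_sup (f := id) hc
    exact h (show (⟨c, hi hc⟩ : JI D) ∈ below a from hca)
  · intro h p hp
    exact le_trans hp h

omit [BoundedOrder D] in
theorem below_sup (a b : D) : below (a ⊔ b) = below a ∪ below b := by
  ext p
  exact p.2.supPrime.le_sup

omit [BoundedOrder D] in
theorem below_inf (a b : D) : below (a ⊓ b) = below a ∩ below b := by
  ext p
  exact le_inf_iff

theorem below_bot : below (⊥ : D) = ∅ := by
  ext p
  simp only [Set.mem_empty_iff_false, iff_false]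
  intro h
  exact p.2.ne_bot (le_bot_iff.mp h)

theorem below_top : below (⊤ : D) = Set.univ := by
  ext p
  simp [below]

theorem below_surj [Finite D] (U : Set (JI D)) (hU : ∀ x y : JI D, x ≤ y → y ∈ U → x ∈ U) :
    ∃ d : D, below d = U := by
  classical
  have : Fintype D := Fintype.ofFinite D
  refine ⟨(Finset.univ.filter (fun p : JI D => p ∈ U)).sup (fun p => p.1), ?_⟩
  ext p
  constructor
  · intro hp
    have hp' : p.1 ≤ (Finset.univ.filter (fun p : JI D => p ∈ U)).sup (fun p => p.1) := hp
    rw [p.2.supPrime.le_finset_sup] at hp'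
    obtain ⟨q, hq, hpq⟩ := hp'
    exact hU p q hpq (Finset.mem_filter.mp hq).2
  · intro hp
    exact Finset.le_sup (f := fun p : JI D => p.1) (Finset.mem_filter.mpr ⟨Finset.mem_univ _, hp⟩)

/-- The preorders on the join irreducible elements which contain the order. -/
abbrev PreAbove (D : Type) [DistribLattice D] : Type :=
  {r : Pre (JI D) // ∀ x y : JI D, x ≤ y → r.1 x y}

/-- The bounded sublattice of a preorder. -/
def toSub (r : PreAbove D) : BSub D :=
  ⟨{ carrier := {d | below d ∈ downs r.1}
     supClosed' := by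
       intro a ha b hb
       show below (a ⊔ b) ∈ downs r.1
       rw [below_sup]
       intro x y hxy hy
       exact hy.imp (ha x y hxy) (hb x y hxy)
     infClosed' := by
       intro a ha b hb
       show below (a ⊓ b) ∈ downs r.1
       rw [below_inf]
       intro x y hxy hy
       exact hy.imp (ha x y hxy) (hb x y hxy) },
   by
     show below (⊥ : D) ∈ downs r.1
     rw [below_bot]
     intro x y _ hy
     exact hy,
   by
     show below (⊤ : D) ∈ downs r.1
     rw [below_top]
     intro x y _ hy
     exact hy⟩

/-- The preorder of a bounded sublattice. -/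
def toPre (S : BSub D) : PreAbove D :=
  ⟨rel (below '' (S.1 : Set D)), by
    rintro x y hxy U ⟨d, -, rfl⟩ hy
    exact le_trans (show x.1 ≤ y.1 from hxy) hy⟩

theorem mem_toSub_toPre [Finite D] (S : BSub D) (d : D) : d ∈ (toSub (toPre S)).1 ↔ d ∈ S.1 := by
  have h : below d ∈ downs (rel (below '' (S.1 : Set D))) ↔
      below d ∈ below '' (S.1 : Set D) := by
    apply mem_downs_rel
    · exact ⟨⊥, S.2.1, below_bot⟩
    · exact ⟨⊤, S.2.2, below_top⟩
    · rintro _ ⟨a, ha, rfl⟩ _ ⟨b, hb, rfl⟩
      exact ⟨a ⊔ b, S.1.supClosed' ha hb, below_sup a b⟩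
    · rintro _ ⟨a, ha, rfl⟩ _ ⟨b, hb, rfl⟩
      exact ⟨a ⊓ b, S.1.infClosed' ha hb, below_inf a b⟩
  refine Iff.trans (show d ∈ (toSub (toPre S)).1 ↔
    below d ∈ downs (rel (below '' (S.1 : Set D))) from Iff.rfl) (h.trans ?_)
  constructor
  · rintro ⟨e, he, hed⟩
    have : e = d := le_antisymm (below_le.mp hed.le) (below_le.mp hed.ge)
    exact this ▸ he
  · intro hd
    exact ⟨d, hd, rfl⟩

theorem toPre_toSub [Finite D] (r : PreAbove D) : toPre (toSub r) = r := by
  apply Subtype.ext
  have h : below '' ((toSub r).1 : Set D) = downs r.1 := by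
    ext U
    constructor
    · rintro ⟨d, hd, rfl⟩
      exact hd
    · intro hU
      obtain ⟨d, rfl⟩ := below_surj U (fun x y hxy hy => hU x y (r.2 x y hxy) hy)
      exact ⟨d, hU, rfl⟩
  show rel (below '' ((toSub r).1 : Set D)) = r.1
  rw [h, rel_downs]

/-- The bounded sublattices of a finite distributive lattice, and the preorders on its join
irreducible elements which contain the order, with the dual order. -/
def subIso (D : Type) [DistribLattice D] [BoundedOrder D] [Finite D] :
    BSub D ≃o (PreAbove D)ᵒᵈ where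
  toFun S := OrderDual.toDual (toPre S)
  invFun r := toSub (OrderDual.ofDual r)
  left_inv S := by
    apply Subtype.ext
    apply SetLike.ext
    exact mem_toSub_toPre S
  right_inv r := toPre_toSub (OrderDual.ofDual r)
  map_rel_iff' := by
    intro S T
    constructor
    · intro h d hd
      have h' : (toPre T).1 ≤ (toPre S).1 := h
      have h2 := downs_anti.mpr h'
      exact (mem_toSub_toPre T d).mp (h2 ((mem_toSub_toPre S d).mpr hd))
    · intro h
      show (toPre T).1 ≤ (toPre S).1
      rintro x y hxy U ⟨d, hd, rfl⟩ hy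
      exact hxy _ ⟨d, h hd, rfl⟩ hy

end

end Vale.Agent.P183.H416
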