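import Vale.Agent.P183.R2.H577.Base
import Vale.Agent.P183.H996.Dual
import Vale.Agent.P183.H994.Nets
import Vale.Agent.P183.R2.H416.Birkhoff

/-!
The lattice of the bounded sublattices of a finite distributive lattice is an interval in the
subgroup lattice of a finite group, if all intervals of the lattices of preorders are.
-/

namespace Vale.Agent.P183.H577

open Vale.Agent.P183 Vale.Agent.P183.H996 Vale.Agent.P183.H994 Vale.Agent.P183.H416

/-- The preorders which contain the order of the join irreducible elements, as an interval. -/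
def aboveIso (D : Type) [DistribLattice D] [BoundedOrder D] [Finite D] :
    PreAbove D ≃o {x : Preords (JI D) //
      (⟨fun x y => x ≤ y, fun x => le_refl x, fun _ _ _ h₁ h₂ => le_trans h₁ h₂⟩ :
        Preords (JI D)) ≤ x ∧
      x ≤ (⟨fun _ _ => True, fun _ => trivial, fun _ _ _ _ _ => trivial⟩ :
        Preords (JI D))} where
  toFun r := ⟨r.1, fun x y h => r.2 x y h, fun _ _ _ => trivial⟩
  invFun r := ⟨r.1, fun x y h => r.2.1 x y h⟩
  left_inv _ := rfl
  right_inv _ := rfl
  map_rel_iff' := Iff.rfl

theorem sublat_row (h : ∀ (X : Type) [Finite X] (a b : Preords X), a ≤ b →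
      GroupInterval {x : Preords X // a ≤ x ∧ x ≤ b})
    (D : Type) [DistribLattice D] [BoundedOrder D] [Finite D] :
    GroupInterval {L : Sublattice D // ⊥ ∈ L ∧ ⊤ ∈ L} := by
  have h1 := h (JI D)
    ⟨fun x y => x ≤ y, fun x => le_refl x, fun _ _ _ h₁ h₂ => le_trans h₁ h₂⟩
    ⟨fun _ _ => True, fun _ => trivial, fun _ _ _ _ _ => trivial⟩
    (fun _ _ _ => trivial)
  exact GroupInterval.of_iso ((subIso D).trans (aboveIso D).dual) (GroupInterval.dual h1)

/-- The interval itself: the preorders above the order. -/
theorem sublat_dual_row (h : ∀ (X : Type) [Finite X] (a b : Preords X), a ≤ b →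
      GroupInterval {x : Preords X // a ≤ x ∧ x ≤ b})
    (D : Type) [DistribLattice D] [BoundedOrder D] [Finite D] :
    GroupInterval {L : Sublattice D // ⊥ ∈ L ∧ ⊤ ∈ L}ᵒᵈ :=
  GroupInterval.dual (sublat_row h D)

end Vale.Agent.P183.H577
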